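import Vale.Agent.P032.H678.VW1
import Vale.Agent.P032.H187.Owner
import Vale.Agent.P032.H416.Props
import Vale.Agent.P032.H98.AntiP
import Vale.Agent.P032.H383.Loc

/-!
# P032, block X, part A: modes of a two-pair point

World `Irr U T`, `NoComp T`.  `V` a two-pair point with the pairs `{a, b}`, `{c, d}` and the free
colours `e`, `f`.

* `PlainFree T V P` : the closed arcs of the pair `P` on `S(V)` have no plain ends.
* `pal79` : a point of at most three colours in the closed arcs of a pair has the pair as its palette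
  or carries exactly one free colour more.
* `modes79` : **one pair is plain-free, or all plain ends of both pairs carry the same free colour**
  (and both pairs have plain ends).
* `xa_eq79`, `modes_pf79` : the same with `XA`, `Pf` of `H383/Loc`.
-/

open Set Filter Topology Metric

noncomputable section

namespace Vale.Agent.P032.H79

open Vale.Agent.P032.Six Vale.Agent.P032.S5.H767 Vale.Agent.P032.H678

variable {U : Fin 6 → Set ℂ} {T : ℂ → Set (Fin 6)} {V p q : ℂ} {a b c d e f : Fin 6}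

/-- the pair `P` has no plain ends on `S(V)` -/
def PlainFree (T : ℂ → Set (Fin 6)) (V : ℂ) (P : Set (Fin 6)) : Prop :=
  ∀ p ∈ closure (Ex T V P), (T p).ncard ≤ 3 → T p = P

/-- a point of the closed arcs of a pair with at most three colours -/
theorem pal79 (h : Irr U T) (hV : DPt T V a b c d) (hp : p ∈ closure (Ex T V {a, b}))
    (h3 : (T p).ncard ≤ 3) : T p = {a, b} ∨ ∃ g, g ∉ T V ∧ T p = {a, b, g} := by
  have hsub : ({a, b} : Set (Fin 6)) ⊆ T p := sub_of_closure h hp
  have hpV : dist p V = 1 := dist_of_closure hp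
  by_cases hT : T p ⊆ T V
  · left
    refine (Set.eq_of_subset_of_ncard_le hsub ?_ (Set.toFinite _)).symm
    rw [Set.ncard_pair hV.ab]
    -- two colours of `V` are missing at `p`
    obtain ⟨i, hi, hip, -⟩ := H187.three_sub187 h hV (by rw [dist_comm]; exact hpV) h3 a
    obtain ⟨j, hj, hjp, hji⟩ := H187.three_sub187 h hV (by rw [dist_comm]; exact hpV) h3 i
    have h1 : T p ⊆ T V \ {i, j} := by
      intro l hl
      refine ⟨hT hl, ?_⟩
      rintro (rfl | hl')
      · exact hip hl
      · rw [mem_singleton_iff] at hl'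
        subst hl'
        exact hjp hl
    have h2 := Set.ncard_le_ncard h1 (Set.toFinite _)
    have h4 : ({i, j} : Set (Fin 6)) ⊆ T V := by
      rintro l (rfl | hl)
      · exact hi
      · rw [mem_singleton_iff] at hl; subst hl; exact hj
    rw [Set.ncard_sdiff h4 (Set.toFinite _), (TP.of_dpt h hV).card,
      Set.ncard_pair (Ne.symm hji)] at h2
    exact h2
  · right
    obtain ⟨g, hg, hgV⟩ := not_subset.1 hT
    refine ⟨g, hgV, ?_⟩
    have ga : a ≠ g := by rintro rfl; exact hgV (by rw [hV.pal]; simp)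
    have gb : b ≠ g := by rintro rfl; exact hgV (by rw [hV.pal]; simp)
    symm
    refine Set.eq_of_subset_of_ncard_le ?_ ?_ (Set.toFinite _)
    · rintro l (rfl | rfl | hl)
      · exact hsub (by simp)
      · exact hsub (by simp)
      · rw [mem_singleton_iff] at hl; subst hl; exact hg
    · rw [Set.ncard_eq_three.2 ⟨a, b, g, hV.ab, ga, gb, rfl⟩]
      exact h3

theorem compl79 (nd : [a, b, c, d, e, f].Nodup) :
    ({a, b, f} : Set (Fin 6))ᶜ = {c, d, e} := by
  have hall : ∀ x : Fin 6, x = a ∨ x = b ∨ x = c ∨ x = d ∨ x = e ∨ x = f := by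
    intro x
    have h1 : ({a, b, c, d, e, f} : Finset (Fin 6)) = Finset.univ := by
      apply Finset.eq_univ_of_card
      have := List.toFinset_card_of_nodup nd
      simpa using this
    have h2 : x ∈ ({a, b, c, d, e, f} : Finset (Fin 6)) := by rw [h1]; simp
    simpa only [Finset.mem_insert, Finset.mem_singleton] using h2
  simp only [List.nodup_cons, List.mem_cons, List.not_mem_nil, or_false, not_or, List.nodup_nil,
    and_true, not_false_eq_true] at nd
  obtain ⟨⟨ab, ac, ad, ae, af⟩, ⟨bc, bd, be, bf⟩, ⟨cd, ce, cf⟩, ⟨de, df⟩, ef⟩ := nd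
  ext x
  simp only [mem_compl_iff, mem_insert_iff, mem_singleton_iff, not_or]
  constructor
  · rintro ⟨h1, h2, h3⟩
    rcases hall x with h | h | h | h | h | h
    · exact absurd h h1
    · exact absurd h h2
    · exact Or.inl h
    · exact Or.inr (Or.inl h)
    · exact Or.inr (Or.inr h)
    · exact absurd h h3
  · rintro (rfl | rfl | rfl)
    · exact ⟨Ne.symm ac, Ne.symm bc, cf⟩
    · exact ⟨Ne.symm ad, Ne.symm bd, df⟩
    · exact ⟨Ne.symm ae, Ne.symm be, ef⟩

theorem nodup_swap79 (nd : [a, b, c, d, e, f].Nodup) : [a, b, c, d, f, e].Nodup :=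
  (List.Perm.nodup_iff (by
    refine List.Perm.cons _ (List.Perm.cons _ (List.Perm.cons _ (List.Perm.cons _ ?_)))
    exact List.Perm.swap _ _ _)).1 nd

theorem all79 (nd : [a, b, c, d, e, f].Nodup) (x : Fin 6) :
    x = a ∨ x = b ∨ x = c ∨ x = d ∨ x = e ∨ x = f := by
  have h1 : ({a, b, c, d, e, f} : Finset (Fin 6)) = Finset.univ := by
    apply Finset.eq_univ_of_card
    have := List.toFinset_card_of_nodup nd
    simpa using this
  have h2 : x ∈ ({a, b, c, d, e, f} : Finset (Fin 6)) := by rw [h1]; simp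
  simpa only [Finset.mem_insert, Finset.mem_singleton] using h2

/-- no plain ends with complementary palettes -/
theorem no_comp79 (h : Irr U T) (hN : NoComp T) (hV : DPt T V a b c d)
    (nd : [a, b, c, d, e, f].Nodup) (hp : p ∈ closure (Ex T V {a, b})) (hTp : T p = {a, b, f})
    (hq : q ∈ closure (Ex T V {c, d})) (hTq : T q = {c, d, e}) : False := by
  have hpV : dist p V = 1 := dist_of_closure hp
  have hqV : dist q V = 1 := dist_of_closure hq
  have hn := nd
  simp only [List.nodup_cons, List.mem_cons, List.not_mem_nil, or_false, not_or, List.nodup_nil,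
    and_true, not_false_eq_true] at hn
  obtain ⟨⟨ab, ac, ad, ae, af⟩, ⟨bc, bd, be, bf⟩, ⟨cd, ce, cf⟩, ⟨de, df⟩, ef⟩ := hn
  have h1 := hN V (TP.of_dpt h hV).card p q hpV hqV
    (by rw [hTp]; exact Set.ncard_eq_three.2 ⟨a, b, f, ab, af, bf, rfl⟩)
    (by rw [hTq, hTp, compl79 nd])
  refine h.anti_clo hV hqV (by rw [hTq]; simp) (by rw [hTq]; simp) ?_
  rw [show 2 * V - q = p by rw [← h1]; ring]
  exact hp

/-- the case analysis of `modes79` -/
theorem key79 (h : Irr U T) (hN : NoComp T) (hV : DPt T V a b c d)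
    (nd : [a, b, c, d, e, f].Nodup) (hp : p ∈ closure (Ex T V {a, b})) (hTp : T p = {a, b, e})
    (hq : q ∈ closure (Ex T V {c, d})) (hq3 : (T q).ncard ≤ 3) (hqne : T q ≠ {c, d})
    (kA : ∀ p ∈ closure (Ex T V {a, b}), (T p).ncard ≤ 3 →
      T p = {a, b} ∨ T p = {a, b, e} ∨ T p = {a, b, f})
    (kC : ∀ p ∈ closure (Ex T V {c, d}), (T p).ncard ≤ 3 →
      T p = {c, d} ∨ T p = {c, d, e} ∨ T p = {c, d, f}) :
    (∃ p ∈ closure (Ex T V {a, b}), T p = {a, b, e}) ∧
      (∃ q ∈ closure (Ex T V {c, d}), T q = {c, d, e}) ∧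
      (∀ p ∈ closure (Ex T V {a, b}), (T p).ncard ≤ 3 → T p = {a, b} ∨ T p = {a, b, e}) ∧
      (∀ q ∈ closure (Ex T V {c, d}), (T q).ncard ≤ 3 → T q = {c, d} ∨ T q = {c, d, e}) := by
  have k1 : ∀ q ∈ closure (Ex T V {c, d}), T q ≠ {c, d, f} := fun q hq hTq =>
    no_comp79 h hN hV (nodup_swap79 nd) hp hTp hq hTq
  have k2 : ∀ q ∈ closure (Ex T V {c, d}), (T q).ncard ≤ 3 →
      T q = {c, d} ∨ T q = {c, d, e} := by
    intro q hq h3
    rcases kC q hq h3 with h4 | h4 | h4
    · exact Or.inl h4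
    · exact Or.inr h4
    · exact absurd h4 (k1 q hq)
  have hqg : T q = {c, d, e} := (k2 q hq hq3).resolve_left hqne
  refine ⟨⟨p, hp, hTp⟩, ⟨q, hq, hqg⟩, fun p' hp' h3 => ?_, k2⟩
  rcases kA p' hp' h3 with h4 | h4 | h4
  · exact Or.inl h4
  · exact Or.inr h4
  · exact (no_comp79 h hN hV nd hp' h4 hq hqg).elim

/-- palettes in the closed arcs of a pair, with names -/
theorem palE79 (h : Irr U T) (hV : DPt T V a b c d) (nd : [a, b, c, d, e, f].Nodup)
    (hp : p ∈ closure (Ex T V {a, b})) (h3 : (T p).ncard ≤ 3) :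
    T p = {a, b} ∨ T p = {a, b, e} ∨ T p = {a, b, f} := by
  rcases pal79 h hV hp h3 with h4 | ⟨g, hg, h4⟩
  · exact Or.inl h4
  · rw [hV.pal] at hg
    simp only [mem_insert_iff, mem_singleton_iff, not_or] at hg
    rcases all79 nd g with h5 | h5 | h5 | h5 | h5 | h5
    · exact absurd h5 hg.1
    · exact absurd h5 hg.2.1
    · exact absurd h5 hg.2.2.1
    · exact absurd h5 hg.2.2.2
    · subst h5; exact Or.inr (Or.inl h4)
    · subst h5; exact Or.inr (Or.inr h4)

theorem nodup_swapP79 (nd : [a, b, c, d, e, f].Nodup) : [c, d, a, b, e, f].Nodup := by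
  have h1 : List.Perm ([a, b, c, d, e, f] : List (Fin 6)) [c, d, a, b, e, f] := by
    have h2 : List.Perm ([a, b] ++ [c, d] : List (Fin 6)) ([c, d] ++ [a, b]) :=
      List.perm_append_comm
    exact h2.append_right [e, f]
  exact h1.nodup_iff.1 nd

/-- **The modes of a two-pair point** : a pair without plain ends, or both pairs have plain ends and
all of them carry the same free colour. -/
theorem modes79 (h : Irr U T) (hN : NoComp T) (hV : DPt T V a b c d)
    (nd : [a, b, c, d, e, f].Nodup) :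
    PlainFree T V {a, b} ∨ PlainFree T V {c, d} ∨
    ∃ g g' : Fin 6, ((g = e ∧ g' = f) ∨ (g = f ∧ g' = e)) ∧
      (∃ p ∈ closure (Ex T V {a, b}), T p = {a, b, g}) ∧
      (∃ q ∈ closure (Ex T V {c, d}), T q = {c, d, g}) ∧
      (∀ p ∈ closure (Ex T V {a, b}), (T p).ncard ≤ 3 → T p = {a, b} ∨ T p = {a, b, g}) ∧
      (∀ q ∈ closure (Ex T V {c, d}), (T q).ncard ≤ 3 → T q = {c, d} ∨ T q = {c, d, g}) := by
  by_cases hA : PlainFree T V {a, b}
  · exact Or.inl hA
  by_cases hC : PlainFree T V {c, d}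
  · exact Or.inr (Or.inl hC)
  right; right
  unfold PlainFree at hA hC
  push Not at hA hC
  obtain ⟨p, hp, hp3, hpne⟩ := hA
  obtain ⟨q, hq, hq3, hqne⟩ := hC
  have nd1 := nodup_swap79 nd
  rcases palE79 h hV nd hp hp3 with h4 | h4 | h4
  · exact absurd h4 hpne
  · exact ⟨e, f, Or.inl ⟨rfl, rfl⟩, key79 h hN hV nd hp h4 hq hq3 hqne
      (fun p hp h3 => palE79 h hV nd hp h3)
      (fun p hp h3 => palE79 h hV.swap (nodup_swapP79 nd) hp h3)⟩
  · exact ⟨f, e, Or.inr ⟨rfl, rfl⟩, key79 h hN hV nd1 hp h4 hq hq3 hqne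
      (fun p hp h3 => palE79 h hV nd1 hp h3)
      (fun p hp h3 => palE79 h hV.swap (nodup_swapP79 nd1) hp h3)⟩

/-- the points of `S(V)` with exactly the colours of a pair are inner points of exact arcs -/
theorem xa_eq79 (h : Irr U T) (hV : DPt T V a b c d) : Ex T V {a, b} = H383.XA T V a b := by
  ext x
  refine ⟨fun hx => ⟨hx.1, ex_self hx⟩, fun hx => ⟨hx.1, ?_⟩⟩
  filter_upwards [mem_nhdsWithin_of_mem_nhds (h.nhd x), self_mem_nhdsWithin] with q h1 h2
  have h3 : T q ⊆ {a, b} := by rw [← hx.2]; exact h1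
  have h4 : T q ⊆ T V := h3.trans (by rw [hV.pal]; rintro i (rfl | hi) <;> simp_all)
  rcases (TP.of_dpt h hV).near q h2 h4 with h5 | h5
  · exact Subset.antisymm h3 h5.2
  · exfalso
    rcases h3 (h5.2 (show c ∈ ({c, d} : Set (Fin 6)) by simp)) with h6 | h6
    · exact hV.ac h6.symm
    · exact hV.bc h6.symm

theorem pf_of_free79 (h : Irr U T) (hV : DPt T V a b c d) (hP : PlainFree T V {a, b}) :
    H383.Pf T V a b := by
  intro x _ h3 hcl
  rw [← xa_eq79 h hV] at hcl
  have h4 := hP x hcl h3.le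
  rw [h4, Set.ncard_pair hV.ab] at h3
  omega

/-- **The modes of a two-pair point**, in the terms of `H383/Loc` -/
theorem modes_pf79 (h : Irr U T) (hN : NoComp T) (hV : DPt T V a b c d)
    (nd : [a, b, c, d, e, f].Nodup) :
    H383.Pf T V a b ∨ H383.Pf T V c d ∨
    ∃ g g' : Fin 6, ((g = e ∧ g' = f) ∨ (g = f ∧ g' = e)) ∧
      (∃ p ∈ closure (H383.XA T V a b), T p = {a, b, g}) ∧
      (∃ q ∈ closure (H383.XA T V c d), T q = {c, d, g}) ∧
      (∀ p ∈ closure (H383.XA T V a b), (T p).ncard ≤ 3 → T p = {a, b} ∨ T p = {a, b, g}) ∧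
      (∀ q ∈ closure (H383.XA T V c d), (T q).ncard ≤ 3 → T q = {c, d} ∨ T q = {c, d, g}) := by
  rw [← xa_eq79 h hV, ← xa_eq79 h hV.swap]
  rcases modes79 h hN hV nd with h1 | h1 | h1
  · exact Or.inl (pf_of_free79 h hV h1)
  · exact Or.inr (Or.inl (pf_of_free79 h hV.swap h1))
  · exact Or.inr (Or.inr h1)

end Vale.Agent.P032.H79
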